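import Mathlib

/-!
# Path of four nodes (helper428)

Five points `t, t+1, .., t+4`; at each time a nonempty set of nodes of the path `0 - 1 - 2 - 3`
(nodes `0` and `3` carry the same label), upper semicontinuous, with incomparable label sets at
`t` and `t + 1`.  Impossible: the minimum of the node set would increase (or decrease) strictly
four times.
-/

namespace Vale.Agent.P032.H428

open Set Filter Topology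

/-- label inclusion of node sets: nodes `0` and `3` have the same label -/
def LSub (p q : Fin 4 → Prop) : Prop := ((p 0 ∨ p 3) → (q 0 ∨ q 3)) ∧ (p 1 → q 1) ∧ (p 2 → q 2)

/-- weak order of node sets -/
def Up (p q : Fin 4 → Prop) : Prop := ∀ i j, p i → q j → i ≤ j

private theorem seven {p0 p1 p2 p3 : Prop} (h : p0 ∨ p1 ∨ p2 ∨ p3) (h02 : ¬ (p0 ∧ p2))
    (h13 : ¬ (p1 ∧ p3)) (h03 : ¬ (p0 ∧ p3)) :
    (p0 ∧ ¬ p1 ∧ ¬ p2 ∧ ¬ p3) ∨ (p0 ∧ p1 ∧ ¬ p2 ∧ ¬ p3) ∨ (¬ p0 ∧ p1 ∧ ¬ p2 ∧ ¬ p3) ∨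
    (¬ p0 ∧ p1 ∧ p2 ∧ ¬ p3) ∨ (¬ p0 ∧ ¬ p1 ∧ p2 ∧ ¬ p3) ∨ (¬ p0 ∧ ¬ p1 ∧ p2 ∧ p3) ∨
    (¬ p0 ∧ ¬ p1 ∧ ¬ p2 ∧ p3) := by
  by_cases h0 : p0
  · have h2 : ¬ p2 := fun x => h02 ⟨h0, x⟩
    have h3 : ¬ p3 := fun x => h03 ⟨h0, x⟩
    by_cases h1 : p1
    · exact Or.inr (Or.inl ⟨h0, h1, h2, h3⟩)
    · exact Or.inl ⟨h0, h1, h2, h3⟩
  by_cases h1 : p1
  · have h3 : ¬ p3 := fun x => h13 ⟨h1, x⟩
    by_cases h2 : p2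
    · exact Or.inr (Or.inr (Or.inr (Or.inl ⟨h0, h1, h2, h3⟩)))
    · exact Or.inr (Or.inr (Or.inl ⟨h0, h1, h2, h3⟩))
  by_cases h2 : p2
  · by_cases h3 : p3
    · exact Or.inr (Or.inr (Or.inr (Or.inr (Or.inr (Or.inl ⟨h0, h1, h2, h3⟩)))))
    · exact Or.inr (Or.inr (Or.inr (Or.inr (Or.inl ⟨h0, h1, h2, h3⟩))))
  · have h3 : p3 := by
      rcases h with x | x | x | x
      · exact absurd x h0
      · exact absurd x h1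
      · exact absurd x h2
      · exact x
    exact Or.inr (Or.inr (Or.inr (Or.inr (Or.inr (Or.inr ⟨h0, h1, h2, h3⟩)))))

private theorem fact1 {p0 p1 p2 p3 q0 q1 q2 q3 : Prop} (hp : p0 ∨ p1 ∨ p2 ∨ p3)
    (hq : q0 ∨ q1 ∨ q2 ∨ q3) (p02 : ¬ (p0 ∧ p2)) (p13 : ¬ (p1 ∧ p3)) (p03 : ¬ (p0 ∧ p3))
    (q02 : ¬ (q0 ∧ q2)) (q13 : ¬ (q1 ∧ q3)) (q03 : ¬ (q0 ∧ q3))
    (h1 : ¬ (((p0 ∨ p3) → (q0 ∨ q3)) ∧ (p1 → q1) ∧ (p2 → q2)))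
    (h2 : ¬ (((q0 ∨ q3) → (p0 ∨ p3)) ∧ (q1 → p1) ∧ (q2 → p2))) :
    ((¬ (p1 ∧ q0) ∧ ¬ (p2 ∧ q0) ∧ ¬ (p2 ∧ q1) ∧ ¬ (p3 ∧ q0) ∧ ¬ (p3 ∧ q1) ∧ ¬ (p3 ∧ q2)) ∧
      ((p0 ∧ ¬ q0) ∨ (p1 ∧ ¬ q0 ∧ ¬ q1) ∨ (p2 ∧ ¬ q0 ∧ ¬ q1 ∧ ¬ q2)) ∧
      ¬ (¬ (q1 ∧ p0) ∧ ¬ (q2 ∧ p0) ∧ ¬ (q2 ∧ p1) ∧ ¬ (q3 ∧ p0) ∧ ¬ (q3 ∧ p1) ∧ ¬ (q3 ∧ p2))) ∨
    ((¬ (q1 ∧ p0) ∧ ¬ (q2 ∧ p0) ∧ ¬ (q2 ∧ p1) ∧ ¬ (q3 ∧ p0) ∧ ¬ (q3 ∧ p1) ∧ ¬ (q3 ∧ p2)) ∧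
      ((p3 ∧ ¬ q3) ∨ (p2 ∧ ¬ q3 ∧ ¬ q2) ∨ (p1 ∧ ¬ q3 ∧ ¬ q2 ∧ ¬ q1)) ∧
      ¬ (¬ (p1 ∧ q0) ∧ ¬ (p2 ∧ q0) ∧ ¬ (p2 ∧ q1) ∧ ¬ (p3 ∧ q0) ∧ ¬ (p3 ∧ q1) ∧ ¬ (p3 ∧ q2))) := by
  rcases seven hp p02 p13 p03 with ⟨a0, a1, a2, a3⟩ | ⟨a0, a1, a2, a3⟩ | ⟨a0, a1, a2, a3⟩ |
      ⟨a0, a1, a2, a3⟩ | ⟨a0, a1, a2, a3⟩ | ⟨a0, a1, a2, a3⟩ | ⟨a0, a1, a2, a3⟩ <;>
    rcases seven hq q02 q13 q03 with ⟨b0, b1, b2, b3⟩ | ⟨b0, b1, b2, b3⟩ | ⟨b0, b1, b2, b3⟩ |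
      ⟨b0, b1, b2, b3⟩ | ⟨b0, b1, b2, b3⟩ | ⟨b0, b1, b2, b3⟩ | ⟨b0, b1, b2, b3⟩ <;>
    clear hp hq p02 p13 p03 q02 q13 q03 <;>
    simp only [a0, a1, a2, a3, b0, b1, b2, b3, and_true, and_false,
      not_true_eq_false, not_false_eq_true, or_true, or_false, imp_self,
      true_implies, implies_true, and_self, or_self] at h1 h2 ⊢

private theorem pairs4 : ∀ i j : Fin 4, ¬ i ≤ j → (i = 1 ∧ j = 0) ∨ (i = 2 ∧ j = 0) ∨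
    (i = 2 ∧ j = 1) ∨ (i = 3 ∧ j = 0) ∨ (i = 3 ∧ j = 1) ∨ (i = 3 ∧ j = 2) := by
  decide

private theorem upE {p q : Fin 4 → Prop} : Up p q ↔
    (¬ (p 1 ∧ q 0) ∧ ¬ (p 2 ∧ q 0) ∧ ¬ (p 2 ∧ q 1) ∧ ¬ (p 3 ∧ q 0) ∧ ¬ (p 3 ∧ q 1) ∧
      ¬ (p 3 ∧ q 2)) := by
  constructor
  · intro h
    refine ⟨?_, ?_, ?_, ?_, ?_, ?_⟩ <;> rintro ⟨a, b⟩ <;> exact absurd (h _ _ a b) (by decide)
  · rintro ⟨h1, h2, h3, h4, h5, h6⟩ i j hi hj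
    by_contra hij
    rcases pairs4 i j hij with ⟨rfl, rfl⟩ | ⟨rfl, rfl⟩ | ⟨rfl, rfl⟩ | ⟨rfl, rfl⟩ | ⟨rfl, rfl⟩ |
      ⟨rfl, rfl⟩
    · exact h1 ⟨hi, hj⟩
    · exact h2 ⟨hi, hj⟩
    · exact h3 ⟨hi, hj⟩
    · exact h4 ⟨hi, hj⟩
    · exact h5 ⟨hi, hj⟩
    · exact h6 ⟨hi, hj⟩

private theorem dich : ∀ j : Fin 4, j = 0 ∨ j = 1 ∨ j = 2 ∨ j = 3 := by decide

private theorem ltE {p q : Fin 4 → Prop}
    (h : (p 0 ∧ ¬ q 0) ∨ (p 1 ∧ ¬ q 0 ∧ ¬ q 1) ∨ (p 2 ∧ ¬ q 0 ∧ ¬ q 1 ∧ ¬ q 2)) :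
    ∃ i, p i ∧ ∀ j, q j → i < j := by
  rcases h with ⟨a, b⟩ | ⟨a, b, c⟩ | ⟨a, b, c, d⟩
  · refine ⟨0, a, fun j hj => ?_⟩
    rcases dich j with rfl | rfl | rfl | rfl
    · exact absurd hj b
    all_goals decide
  · refine ⟨1, a, fun j hj => ?_⟩
    rcases dich j with rfl | rfl | rfl | rfl
    · exact absurd hj b
    · exact absurd hj c
    all_goals decide
  · refine ⟨2, a, fun j hj => ?_⟩
    rcases dich j with rfl | rfl | rfl | rfl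
    · exact absurd hj b
    · exact absurd hj c
    · exact absurd hj d
    all_goals decide

private theorem gtE {p q : Fin 4 → Prop}
    (h : (p 3 ∧ ¬ q 3) ∨ (p 2 ∧ ¬ q 3 ∧ ¬ q 2) ∨ (p 1 ∧ ¬ q 3 ∧ ¬ q 2 ∧ ¬ q 1)) :
    ∃ i, p i ∧ ∀ j, q j → j < i := by
  rcases h with ⟨a, b⟩ | ⟨a, b, c⟩ | ⟨a, b, c, d⟩
  · refine ⟨3, a, fun j hj => ?_⟩
    rcases dich j with rfl | rfl | rfl | rfl
    · decide
    · decide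
    · decide
    · exact absurd hj b
  · refine ⟨2, a, fun j hj => ?_⟩
    rcases dich j with rfl | rfl | rfl | rfl
    · decide
    · decide
    · exact absurd hj c
    · exact absurd hj b
  · refine ⟨1, a, fun j hj => ?_⟩
    rcases dich j with rfl | rfl | rfl | rfl
    · decide
    · exact absurd hj d
    · exact absurd hj c
    · exact absurd hj b

/-- the trichotomy for Prop valued node sets -/
theorem fact2 {p q : Fin 4 → Prop} (hp : ∃ i, p i) (hq : ∃ i, q i)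
    (p02 : ¬ (p 0 ∧ p 2)) (p13 : ¬ (p 1 ∧ p 3)) (p03 : ¬ (p 0 ∧ p 3))
    (q02 : ¬ (q 0 ∧ q 2)) (q13 : ¬ (q 1 ∧ q 3)) (q03 : ¬ (q 0 ∧ q 3))
    (h1 : ¬ LSub p q) (h2 : ¬ LSub q p) :
    (Up p q ∧ (∃ i, p i ∧ ∀ j, q j → i < j) ∧ ¬ Up q p) ∨
    (Up q p ∧ (∃ i, p i ∧ ∀ j, q j → j < i) ∧ ¬ Up p q) := by
  classical
  have hp' : p 0 ∨ p 1 ∨ p 2 ∨ p 3 := by
    obtain ⟨i, hi⟩ := hp
    rcases dich i with rfl | rfl | rfl | rfl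
    · exact Or.inl hi
    · exact Or.inr (Or.inl hi)
    · exact Or.inr (Or.inr (Or.inl hi))
    · exact Or.inr (Or.inr (Or.inr hi))
  have hq' : q 0 ∨ q 1 ∨ q 2 ∨ q 3 := by
    obtain ⟨i, hi⟩ := hq
    rcases dich i with rfl | rfl | rfl | rfl
    · exact Or.inl hi
    · exact Or.inr (Or.inl hi)
    · exact Or.inr (Or.inr (Or.inl hi))
    · exact Or.inr (Or.inr (Or.inr hi))
  rcases fact1 hp' hq' p02 p13 p03 q02 q13 q03 h1 h2 with ⟨a, b, c⟩ | ⟨a, b, c⟩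
  · exact Or.inl ⟨upE.2 a, ltE b, fun h => c (upE.1 h)⟩
  · exact Or.inr ⟨upE.2 a, gtE b, fun h => c (upE.1 h)⟩

/-- **PATH OF FOUR.**  (Closed interval of length exactly four.) -/
theorem path4 {Q : ℝ → Fin 4 → Prop} {a : ℝ}
    (ne : ∀ t ∈ Icc a (a + 4), ∃ i, Q t i)
    (h02 : ∀ t ∈ Icc a (a + 4), ¬ (Q t 0 ∧ Q t 2))
    (h13 : ∀ t ∈ Icc a (a + 4), ¬ (Q t 1 ∧ Q t 3))
    (h03 : ∀ t ∈ Icc a (a + 4), ¬ (Q t 0 ∧ Q t 3))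
    (usc : ∀ t ∈ Icc a (a + 4), ∀ i, ¬ Q t i → ∀ᶠ s in 𝓝[Icc a (a + 4)] t, ¬ Q s i)
    (inc : ∀ t ∈ Icc a (a + 3), ¬ LSub (Q t) (Q (t + 1)))
    (inc' : ∀ t ∈ Icc a (a + 3), ¬ LSub (Q (t + 1)) (Q t)) : False := by
  have m0 : ∀ t ∈ Icc a (a + 3), t ∈ Icc a (a + 4) := fun t ht => ⟨ht.1, by linarith [ht.2]⟩
  have m1 : ∀ t ∈ Icc a (a + 3), t + 1 ∈ Icc a (a + 4) :=
    fun t ht => ⟨by linarith [ht.1], by linarith [ht.2]⟩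
  have F : ∀ t ∈ Icc a (a + 3),
      (Up (Q t) (Q (t + 1)) ∧ (∃ i, Q t i ∧ ∀ j, Q (t + 1) j → i < j) ∧ ¬ Up (Q (t + 1)) (Q t)) ∨
      (Up (Q (t + 1)) (Q t) ∧ (∃ i, Q t i ∧ ∀ j, Q (t + 1) j → j < i) ∧
        ¬ Up (Q t) (Q (t + 1))) := fun t ht =>
    fact2 (ne t (m0 t ht)) (ne _ (m1 t ht)) (h02 t (m0 t ht)) (h13 t (m0 t ht)) (h03 t (m0 t ht))
      (h02 _ (m1 t ht)) (h13 _ (m1 t ht)) (h03 _ (m1 t ht)) (inc t ht) (inc' t ht)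
  have usc' : ∀ t ∈ Icc a (a + 4), ∀ᶠ s in 𝓝[Icc a (a + 4)] t, ∀ i, Q s i → Q t i := by
    intro t ht
    have : ∀ i : Fin 4, ∀ᶠ s in 𝓝[Icc a (a + 4)] t, (Q s i → Q t i) := by
      intro i
      by_cases hi : Q t i
      · exact Eventually.of_forall fun _ _ => hi
      · exact (usc t ht i hi).mono fun s hs h => absurd h hs
    exact eventually_all.2 this
  have tend0 : ∀ t, 𝓝[Icc a (a + 3)] t ≤ 𝓝[Icc a (a + 4)] t := fun t =>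
    nhdsWithin_mono t (fun s hs => m0 s hs)
  have tend1 : ∀ t, Tendsto (fun s : ℝ => s + 1) (𝓝[Icc a (a + 3)] t) (𝓝[Icc a (a + 4)] (t + 1)) := by
    intro t
    refine tendsto_nhdsWithin_iff.2 ⟨?_, ?_⟩
    · exact ((continuous_id.add continuous_const).tendsto t).mono_left nhdsWithin_le_nhds
    · exact eventually_mem_nhdsWithin.mono fun s hs => m1 s hs
  have loc : ∀ t ∈ Icc a (a + 3), ∀ᶠ s in 𝓝[Icc a (a + 3)] t,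
      (Up (Q t) (Q (t + 1)) ↔ Up (Q s) (Q (s + 1))) := by
    intro t ht
    have e0 := (usc' t (m0 t ht)).filter_mono (tend0 t)
    have e1 := (tend1 t).eventually (usc' (t + 1) (m1 t ht))
    filter_upwards [e0, e1, eventually_mem_nhdsWithin] with s h0 h1 hs
    have up1 : Up (Q t) (Q (t + 1)) → Up (Q s) (Q (s + 1)) := fun h i j hi hj =>
      h i j (h0 i hi) (h1 j hj)
    have up2 : Up (Q (t + 1)) (Q t) → Up (Q (s + 1)) (Q s) := fun h i j hi hj =>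
      h i j (h1 i hi) (h0 j hj)
    constructor
    · exact up1
    · intro hs'
      rcases F t ht with h | h
      · exact h.1
      · exfalso
        rcases F s hs with g | g
        · exact g.2.2 (up2 h.1)
        · exact g.2.2 hs'
  have all : ∀ t ∈ Icc a (a + 3), (Up (Q a) (Q (a + 1)) ↔ Up (Q t) (Q (t + 1))) := by
    intro t ht
    have ha : a ∈ Icc a (a + 3) := ⟨le_rfl, by linarith⟩
    exact isPreconnected_Icc.induction₂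
      (fun x y => (Up (Q x) (Q (x + 1)) ↔ Up (Q y) (Q (y + 1)))) loc
      (fun x y z _ _ _ h g => h.trans g) (fun x y _ _ h => h.symm) ha ht
  have i0 : a ∈ Icc a (a + 3) := ⟨le_rfl, by linarith⟩
  have i1 : a + 1 ∈ Icc a (a + 3) := ⟨by linarith, by linarith⟩
  have i2 : a + 1 + 1 ∈ Icc a (a + 3) := ⟨by linarith, by linarith⟩
  have i3 : a + 1 + 1 + 1 ∈ Icc a (a + 3) := ⟨by linarith, by linarith⟩
  obtain ⟨z4, hz4⟩ := ne (a + 1 + 1 + 1 + 1) ⟨by linarith, by linarith⟩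
  by_cases hU : Up (Q a) (Q (a + 1))
  · have get : ∀ t ∈ Icc a (a + 3), ∃ i, Q t i ∧ ∀ j, Q (t + 1) j → i < j := by
      intro t ht
      rcases F t ht with h | h
      · exact h.2.1
      · exact absurd ((all t ht).1 hU) h.2.2
    obtain ⟨z0, h0, g0⟩ := get a i0
    obtain ⟨z1, h1, g1⟩ := get _ i1
    obtain ⟨z2, h2, g2⟩ := get _ i2
    obtain ⟨z3, h3, g3⟩ := get _ i3
    have a0 := g0 z1 h1
    have a1 := g1 z2 h2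
    have a2 := g2 z3 h3
    have a3 := g3 z4 hz4
    omega
  · have get : ∀ t ∈ Icc a (a + 3), ∃ i, Q t i ∧ ∀ j, Q (t + 1) j → j < i := by
      intro t ht
      rcases F t ht with h | h
      · exact absurd ((all t ht).2 h.1) hU
      · exact h.2.1
    obtain ⟨z0, h0, g0⟩ := get a i0
    obtain ⟨z1, h1, g1⟩ := get _ i1
    obtain ⟨z2, h2, g2⟩ := get _ i2
    obtain ⟨z3, h3, g3⟩ := get _ i3
    have a0 := g0 z1 h1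
    have a1 := g1 z2 h2
    have a2 := g2 z3 h3
    have a3 := g3 z4 hz4
    omega

end Vale.Agent.P032.H428
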